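import Vale.Agent.P329.H962.Rows
import Mathlib.Topology.Compactness.Compact
import Mathlib.Topology.Separation.Basic

/-! Row F4 of the frozen interface (H962/Rows): iterated coverage of walks that are not
coboundaries, from rows F1 and F2. -/

namespace Vale.Agent.P329.H861

open H962

theorem isOpen_cyl {B : Type} [TopologicalSpace B] [DiscreteTopology B] (k J : ℕ) (c : ℕ → B) :
    IsOpen {z : ℕ → B | ∀ i < J, z (k + i) = c i} := by
  have e : {z : ℕ → B | ∀ i < J, z (k + i) = c i} =
      ⋂ i ∈ Finset.range J, (fun z : ℕ → B => z (k + i)) ⁻¹' {c i} := by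
    ext z
    simp
  rw [e]
  exact isOpen_biInter_finset fun i _ => (isOpen_discrete _).preimage (continuous_apply _)

/-- uniform recurrence in a minimal set -/
theorem unif {B : Type} [Finite B] {M : Set (ℕ → B)} (hM : Mn M) {m0 : ℕ → B} (h0 : m0 ∈ M)
    (J : ℕ) : ∃ K, ∀ m ∈ M, ∃ k < K, ∀ i < J, m (k + i) = m0 i := by
  let _ : TopologicalSpace B := ⊥
  have _ : DiscreteTopology B := ⟨rfl⟩
  have hcl : IsClosed M := by
    rw [← closure_subset_iff_isClosed]
    intro z hz
    apply hM.cl
    intro J'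
    rw [mem_closure_iff] at hz
    obtain ⟨m, hm1, hm2⟩ := hz _ (isOpen_cyl 0 J' z) (fun i _ => by simp)
    exact ⟨m, hm2, fun i hi => by simpa using hm1 i hi⟩
  obtain ⟨t, ht⟩ := hcl.isCompact.elim_finite_subcover
    (fun k => {m : ℕ → B | ∀ i < J, m (k + i) = m0 i}) (fun k => isOpen_cyl k J m0)
    (fun m hm => Set.mem_iUnion.2 (hM.mn m hm m0 h0 J))
  refine ⟨t.sup id + 1, fun m hm => ?_⟩
  obtain ⟨k, hk⟩ := Set.mem_iUnion.1 (ht hm)
  obtain ⟨hkt, hk⟩ := Set.mem_iUnion.1 hk
  exact ⟨k, Nat.lt_succ_of_le (Finset.le_sup (f := id) hkt), hk⟩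

theorem tail_mem {B : Type} {M : Set (ℕ → B)} (hinv : ∀ m ∈ M, sh m ∈ M) :
    ∀ (k : ℕ) (m : ℕ → B), m ∈ M → (fun i => m (k + i)) ∈ M
  | 0, m, hm => by simpa using hm
  | k + 1, m, hm => by
    have h := tail_mem hinv k (sh m) (hinv m hm)
    have e : (fun i => m (k + 1 + i)) = fun i => sh m (k + i) := by
      funext i
      simp only [sh]
      congr 1
      omega
    rw [e]
    exact h

theorem near_drop {α B : Type} {β : List α → B} {m : ℕ → B} {J k J' : ℕ} {X : List α}
    (hX : Near β m J X) (hk : k + J' ≤ J) : Near β (fun i => m (k + i)) J' (X.drop k) := by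
  refine ⟨?_, fun i hi => ?_⟩
  · rw [List.length_drop]
    have := hX.1
    omega
  · rw [List.drop_drop]
    exact hX.2 (k + i) (by omega)

theorem N_drop {α : Type} {p : ℕ} (h : List α → ZMod p) (X : List α) (i : ℕ)
    (hi : i < X.length) : N h (X.drop i) = N h (X.drop (i + 1)) + h (X.drop i) := by
  rw [List.drop_eq_getElem_cons hi]
  rfl

/-- the walk along a sequence -/
def wlk {B : Type} {p : ℕ} (τ : (ℕ → B) → ZMod p) (m : ℕ → B) : ℕ → ZMod p
  | 0 => 0
  | i + 1 => wlk τ m i - τ (fun j => m (i + j))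

theorem cov_aux (F1 : RowF1) (F2 : RowF2) (α : Type) (p : ℕ) [Fact p.Prime] :
    ∀ (ρs : List (ZMod p)) (B : Type) [Finite B] (β : List α → B) (h : List α → ZMod p)
      (M : Set (ℕ → B)) (τ : (ℕ → B) → ZMod p), Mn M → Rep β M h τ → ¬ Cob M τ →
      ∃ J, ∀ m ∈ M, ∀ X, Near β m J X → ∃ i < J, iter h ρs (X.drop i) ≠ 0 := by
  intro ρs
  induction ρs with
  | nil =>
    intro B _ β h M τ hM hR hC
    have hne : ∃ m0 ∈ M, τ m0 ≠ 0 := by
      by_contra hcon
      push Not at hcon
      exact hC ⟨fun _ => 0, ⟨0, fun _ _ _ => rfl⟩, fun m hm => by simp [hcon m hm]⟩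
    obtain ⟨m0, hm0, hτ⟩ := hne
    obtain ⟨Jt, hW, hR⟩ := hR
    obtain ⟨K, hK⟩ := unif hM hm0 Jt
    refine ⟨K + Jt, fun m hm X hX => ?_⟩
    obtain ⟨k, hk, hk'⟩ := hK m hm
    refine ⟨k, by omega, ?_⟩
    have e1 := hR _ (tail_mem hM.inv k m hm) _ (near_drop hX (k := k) (J' := Jt) (by omega))
    change h (X.drop k) ≠ 0
    rw [e1, hW _ m0 hk']
    exact hτ
  | cons ρ ρs ih =>
    intro B _ β h M τ hM hR hC
    obtain ⟨Jt, hW, hR⟩ := hR
    obtain ⟨m0, hm0⟩ := hM.ne
    -- the lifted orbit
    let z : ℕ → B × ZMod p × ZMod p := fun i => (m0 i, wlk τ m0 i, τ (fun j => m0 (i + j)))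
    obtain ⟨M', hM', hz, hpr⟩ := F1 B (B × ZMod p × ZMod p) Prod.fst z M hM
      (fun m hm J => hM.mn m0 hm0 m hm J)
    have hS : Skw M τ M' := by
      refine ⟨fun m hm => hpr m hm, fun m hm => ?_, fun m hm => ?_⟩
      · obtain ⟨k, hk⟩ := hz m hm 2
        have h0 := hk 0 (by omega)
        have h1 := hk 1 (by omega)
        rw [← h0, ← h1]
        simp only [z]
        change wlk τ m0 k = wlk τ m0 (k + 1) + _
        simp [wlk]
      · obtain ⟨k, hk⟩ := hz m hm (Jt + 1)
        have h0 := hk 0 (by omega)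
        rw [← h0]
        simp only [z]
        apply hW
        intro i hi
        have := hk i (by omega)
        simp only [pr1]
        rw [← this]
        rfl
    obtain ⟨hrot, hlift, hΘ⟩ := F2 B p M τ Jt M' hM hW hM' hS hC
    let Θ : (ℕ → B × ZMod p × ZMod p) → ZMod p := fun y => if (y 0).2.1 = ρ then (y 0).2.2 else 0
    have hC' : ¬ Cob M' Θ := by
      apply hΘ
      intro m hm
      have hval : ∀ c : ZMod p, Θ (rot c m) = if (m 0).2.1 + c = ρ then (m 0).2.2 else 0 :=
        fun _ => rfl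
      rw [Finset.sum_congr rfl fun c _ => hval c,
        Finset.sum_eq_single (ρ - (m 0).2.1)]
      · rw [if_pos (add_sub_cancel _ _)]
        exact hS.tau m hm
      · intro c _ hc
        rw [if_neg]
        intro h1
        apply hc
        rw [← h1]
        exact (add_sub_cancel_left _ _).symm
      · intro h1
        exact absurd (Finset.mem_univ _) h1
    have hR' : Rep (ext β h) M' (rc h ρ) Θ := by
      refine ⟨1, fun y y' hy => ?_, fun m hm X hX => ?_⟩
      · simp only [Θ]
        rw [hy 0 (by omega)]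
      · have h0 := hX.2 0 (by omega)
        rw [List.drop_zero] at h0
        simp only [Θ]
        rw [← h0]
        rfl
    obtain ⟨J, hJ⟩ := ih (B × ZMod p × ZMod p) (ext β h) (rc h ρ) M' Θ hM' hR' hC'
    refine ⟨J + Jt + 1, fun m hm X hX => ?_⟩
    obtain ⟨m', hm', he, hs⟩ := hlift m hm (N h X)
    have hN : ∀ i, i < J + 1 → N h (X.drop i) = (m' i).2.1 := by
      intro i
      induction i with
      | zero =>
        intro _
        rw [List.drop_zero, hs]
      | succ i ihi =>
        intro hi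
        have h1 := ihi (by omega)
        have h2 := N_drop h X i (by have := hX.1; omega)
        have h3 := hR _ (tail_mem hM.inv i m hm) _ (near_drop hX (k := i) (J' := Jt) (by omega))
        have h4 := hS.st _ (tail_mem hM'.inv i m' hm')
        have h5 := hS.tau _ (tail_mem hM'.inv i m' hm')
        have h6 : pr1 (fun j => m' (i + j)) = fun j => m (i + j) := by
          rw [← he]
          rfl
        rw [h6] at h5
        simp only [Nat.add_zero] at h4 h5
        rw [h1, h4, h3, h5] at h2
        exact (add_right_cancel h2).symm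
    have hnear : Near (ext β h) m' J X := by
      refine ⟨by have := hX.1; omega, fun i hi => ?_⟩
      have h3 := hR _ (tail_mem hM.inv i m hm) _ (near_drop hX (k := i) (J' := Jt) (by omega))
      have h5 := hS.tau _ (tail_mem hM'.inv i m' hm')
      have h6 : pr1 (fun j => m' (i + j)) = fun j => m (i + j) := by
        rw [← he]
        rfl
      rw [h6] at h5
      simp only [Nat.add_zero] at h5
      have h7 := hX.2 i (by omega)
      have h8 : (m' i).1 = m i := by
        rw [← he]
        rfl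
      unfold ext
      refine Prod.ext ?_ (Prod.ext ?_ ?_)
      · exact h7.trans h8.symm
      · exact hN i (by omega)
      · exact h3.trans h5.symm
    obtain ⟨i, hi, hi'⟩ := hJ m' hm' X hnear
    exact ⟨i, by omega, hi'⟩

theorem rowF4 (F1 : RowF1) (F2 : RowF2) : RowF4 := by
  intro α B _ p _ β h M τ hM hR hC ρs
  exact cov_aux F1 F2 α p ρs B β h M τ hM hR hC

end Vale.Agent.P329.H861
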