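import Vale.Agent.P329.H861.RowF4

/-! Row F2 of the frozen interface (H962/Rows): rotation invariance of a minimal set of a skew
product over a walk that is not a coboundary, and descent of rotation sums. -/

namespace Vale.Agent.P329.H861

open H962

theorem isClosed_of_win {B : Type} [TopologicalSpace B] [DiscreteTopology B] {M : Set (ℕ → B)}
    (hcl : ∀ z, (∀ J, ∃ m ∈ M, ∀ i < J, m i = z i) → z ∈ M) : IsClosed M := by
  rw [← closure_subset_iff_isClosed]
  intro z hz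
  apply hcl
  intro J'
  rw [mem_closure_iff] at hz
  obtain ⟨m, hm1, hm2⟩ := hz _ (isOpen_cyl 0 J' z) (fun i _ => by simp)
  exact ⟨m, hm2, fun i hi => by simpa using hm1 i hi⟩

/-- compactness: an increasing sequence of window conditions covering `M` is finite on `M` -/
theorem cover {B : Type} [Finite B] {M : Set (ℕ → B)}
    (hcl : ∀ z, (∀ J, ∃ m ∈ M, ∀ i < J, m i = z i) → z ∈ M) (P : ℕ → (ℕ → B) → Prop)
    (hmono : ∀ J J' z, J ≤ J' → P J z → P J' z)
    (hwin : ∀ J, ∃ L, ∀ z z', (∀ i < L, z i = z' i) → P J z → P J z')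
    (hcov : ∀ m ∈ M, ∃ J, P J m) : ∃ J, ∀ m ∈ M, P J m := by
  let _ : TopologicalSpace B := ⊥
  have _ : DiscreteTopology B := ⟨rfl⟩
  have ho : ∀ J, IsOpen {z | P J z} := by
    intro J
    rw [isOpen_iff_mem_nhds]
    intro z hz
    obtain ⟨L, hL⟩ := hwin J
    refine Filter.mem_of_superset ((isOpen_cyl 0 L z).mem_nhds (fun i _ => by simp)) ?_
    intro z' hz'
    exact hL z z' (fun i hi => by simpa using (hz' i hi).symm) hz
  obtain ⟨t, ht⟩ := (isClosed_of_win hcl).isCompact.elim_finite_subcover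
    (fun J => {z | P J z}) ho (fun m hm => Set.mem_iUnion.2 (hcov m hm))
  refine ⟨t.sup id, fun m hm => ?_⟩
  obtain ⟨k, hk⟩ := Set.mem_iUnion.1 (ht hm)
  obtain ⟨hkt, hk⟩ := Set.mem_iUnion.1 hk
  exact hmono k _ m (Finset.le_sup (f := id) hkt) hk

/-- lift of a sequence with initial state `s` -/
def lft {B : Type} {p : ℕ} (τ : (ℕ → B) → ZMod p) (z : ℕ → B) (s : ZMod p) :
    ℕ → B × ZMod p × ZMod p := fun i => (z i, s + wlk τ z i, τ (fun j => z (i + j)))

theorem wlk_win {B : Type} {p : ℕ} {τ : (ℕ → B) → ZMod p} {J : ℕ} (hW : Wn J τ) {z z' : ℕ → B} :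
    ∀ (i : ℕ), (∀ j < i + J, z j = z' j) → wlk τ z i = wlk τ z' i
  | 0, _ => rfl
  | i + 1, h => by
    simp only [wlk]
    rw [wlk_win hW i (fun j hj => h j (by omega))]
    congr 1
    exact hW _ _ fun j hj => h (i + j) (by omega)

theorem lft_win {B : Type} {p : ℕ} {τ : (ℕ → B) → ZMod p} {J : ℕ} (hW : Wn J τ) {z z' : ℕ → B}
    {L : ℕ} (h : ∀ j < L + J + 1, z j = z' j) (s : ZMod p) :
    ∀ i < L, lft τ z s i = lft τ z' s i := by
  intro i hi
  simp only [lft]
  rw [h i (by omega), wlk_win hW i (fun j hj => h j (by omega)),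
    hW (fun j => z (i + j)) (fun j => z' (i + j)) (fun j hj => h (i + j) (by omega))]

section

variable {B : Type} {p : ℕ} {M : Set (ℕ → B)} {τ : (ℕ → B) → ZMod p}
  {M' : Set (ℕ → B × ZMod p × ZMod p)}

theorem eq_lft (hinv : ∀ m ∈ M', sh m ∈ M') (hS : Skw M τ M') {m : ℕ → B × ZMod p × ZMod p}
    (hm : m ∈ M') : m = lft τ (pr1 m) (m 0).2.1 := by
  have h2 : ∀ i, (m i).2.2 = τ (fun j => pr1 m (i + j)) := by
    intro i
    have := hS.tau _ (tail_mem hinv i m hm)
    simp only [Nat.add_zero] at this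
    exact this
  have h1 : ∀ i, (m i).2.1 = (m 0).2.1 + wlk τ (pr1 m) i := by
    intro i
    induction i with
    | zero => simp [wlk]
    | succ i ih =>
      have h4 := hS.st _ (tail_mem hinv i m hm)
      simp only [Nat.add_zero] at h4
      rw [ih, h2 i] at h4
      simp only [wlk]
      rw [add_sub_assoc', h4]
      exact (add_sub_cancel_right _ _).symm
  funext i
  exact Prod.ext rfl (Prod.ext (h1 i) (h2 i))

theorem rot_lft (z : ℕ → B) (s c : ZMod p) : rot c (lft τ z s) = lft τ z (s + c) := by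
  funext i
  simp only [rot, lft]
  rw [add_right_comm]

theorem rot_mem (hM' : Mn M') {m0 : ℕ → B × ZMod p × ZMod p} (h0 : m0 ∈ M') {c : ZMod p}
    (hc : rot c m0 ∈ M') : ∀ m ∈ M', rot c m ∈ M' := by
  intro m hm
  apply hM'.cl
  intro J
  obtain ⟨k, hk⟩ := hM'.mn m0 h0 m hm J
  refine ⟨_, tail_mem hM'.inv k _ hc, fun i hi => ?_⟩
  simp only [rot]
  rw [hk i hi]

theorem exists_over [Finite B] [NeZero p] (hM : Mn M) (hM' : Mn M') (hS : Skw M τ M')
    {m : ℕ → B} (hm : m ∈ M) : ∃ m' ∈ M', pr1 m' = m := by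
  by_contra hcon
  push Not at hcon
  obtain ⟨J, hJ⟩ := cover hM'.cl (fun J z => ∃ i < J, (z i).1 ≠ m i)
    (fun J J' z hJ ⟨i, hi, h⟩ => ⟨i, by omega, h⟩)
    (fun J => ⟨J, fun z z' h ⟨i, hi, h'⟩ => ⟨i, hi, by rw [← h i hi]; exact h'⟩⟩)
    (fun m' hm' => by
      obtain ⟨i, hi⟩ := Function.ne_iff.1 (hcon m' hm')
      exact ⟨i + 1, i, by omega, hi⟩)
  obtain ⟨m1, hm1⟩ := hM'.ne
  obtain ⟨k, hk⟩ := hM.mn _ (hS.pr m1 hm1) m hm J
  obtain ⟨i, hi, h⟩ := hJ _ (tail_mem hM'.inv k m1 hm1)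
  exact h (hk i hi)

/-- if the minimal set is a graph over `M`, the walk is a coboundary -/
theorem cob_of_graph [Finite B] [NeZero p] (hM : Mn M) (hM' : Mn M') (hS : Skw M τ M')
    (hg : ∀ m ∈ M', ∀ m' ∈ M', pr1 m = pr1 m' → (m 0).2.1 = (m' 0).2.1) : Cob M τ := by
  -- compactness for pairs
  let K : Set (ℕ → (B × ZMod p × ZMod p) × (B × ZMod p × ZMod p)) :=
    {z | (fun i => (z i).1) ∈ M' ∧ (fun i => (z i).2) ∈ M' ∧ (z 0).1.2.1 ≠ (z 0).2.2.1}
  have hK : ∀ z, (∀ J, ∃ m ∈ K, ∀ i < J, m i = z i) → z ∈ K := by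
    intro z hz
    refine ⟨hM'.cl _ fun J => ?_, hM'.cl _ fun J => ?_, ?_⟩
    · obtain ⟨m, hm, h⟩ := hz J
      exact ⟨_, hm.1, fun i hi => by simp only [h i hi]⟩
    · obtain ⟨m, hm, h⟩ := hz J
      exact ⟨_, hm.2.1, fun i hi => by simp only [h i hi]⟩
    · obtain ⟨m, hm, h⟩ := hz 1
      rw [← h 0 (by omega)]
      exact hm.2.2
  obtain ⟨L, hL⟩ := cover hK (fun J z => ∃ i < J, (z i).1.1 ≠ (z i).2.1)
    (fun J J' z hJ ⟨i, hi, h⟩ => ⟨i, by omega, h⟩)
    (fun J => ⟨J, fun z z' h ⟨i, hi, h'⟩ => ⟨i, hi, by rw [← h i hi]; exact h'⟩⟩)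
    (fun z hz => by
      by_contra hcon
      push Not at hcon
      refine hz.2.2 (hg _ hz.1 _ hz.2.1 ?_)
      funext i
      exact hcon (i + 1) i (by omega))
  have hL' : ∀ m ∈ M', ∀ m' ∈ M', (∀ i < L, (m i).1 = (m' i).1) → (m 0).2.1 = (m' 0).2.1 := by
    intro m hm m' hm' h
    by_contra hne
    obtain ⟨i, hi, h'⟩ := hL (fun i => (m i, m' i)) ⟨hm, hm', hne⟩
    exact h' (h i hi)
  let ψ : (ℕ → B) → ZMod p := fun z =>
    Classical.epsilon fun s => ∃ m ∈ M', (∀ i < L, (m i).1 = z i) ∧ (m 0).2.1 = s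
  have hψ : ∀ m' ∈ M', ψ (pr1 m') = (m' 0).2.1 := by
    intro m' hm'
    have := Classical.epsilon_spec
      (p := fun s => ∃ m ∈ M', (∀ i < L, (m i).1 = pr1 m' i) ∧ (m 0).2.1 = s)
      ⟨(m' 0).2.1, m', hm', fun i _ => rfl, rfl⟩
    obtain ⟨m, hm, h1, h2⟩ := this
    change Classical.epsilon _ = _
    rw [← h2]
    exact hL' m hm m' hm' h1
  refine ⟨ψ, ⟨L, fun z z' h => ?_⟩, fun m hm => ?_⟩
  · have e : (fun s : ZMod p => ∃ m ∈ M', (∀ i < L, (m i).1 = z i) ∧ (m 0).2.1 = s) =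
        fun s => ∃ m ∈ M', (∀ i < L, (m i).1 = z' i) ∧ (m 0).2.1 = s := by
      funext s
      apply propext
      constructor
      · rintro ⟨m, hm, h1, h2⟩
        exact ⟨m, hm, fun i hi => (h1 i hi).trans (h i hi), h2⟩
      · rintro ⟨m, hm, h1, h2⟩
        exact ⟨m, hm, fun i hi => (h1 i hi).trans (h i hi).symm, h2⟩
    change Classical.epsilon _ = Classical.epsilon _
    rw [e]
  · obtain ⟨m', hm', he⟩ := exists_over hM hM' hS hm
    have h1 := hψ m' hm'
    have h2 : ψ (sh m) = (m' 1).2.1 := by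
      have := hψ _ (hM'.inv m' hm')
      rw [← he]
      exact this
    rw [he] at h1
    have h3 := hS.st m' hm'
    have h4 := hS.tau m' hm'
    rw [he] at h4
    rw [h1, h2, ← h4, h3]
    exact (add_sub_cancel_left _ _).symm

end

theorem rowF2 : RowF2 := by
  intro B _ p hp M τ J M' hM hW hM' hS hC
  have _ : NeZero p := ⟨hp.out.ne_zero⟩
  -- rotation
  have hrot : ∀ m ∈ M', ∀ c, rot c m ∈ M' := by
    by_contra hcon
    apply hC
    apply cob_of_graph hM hM' hS
    intro m hm m' hm' he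
    by_contra hne
    apply hcon
    -- c is a nonzero rotation
    set c : ZMod p := (m' 0).2.1 - (m 0).2.1 with hc
    have hc0 : c ≠ 0 := fun h => hne (sub_eq_zero.1 h).symm
    have hcm : rot c m ∈ M' := by
      have e1 := eq_lft hM'.inv hS hm
      have e2 := eq_lft hM'.inv hS hm'
      have e3 : rot c m = m' :=
        calc rot c m = rot c (lft τ (pr1 m) (m 0).2.1) := congrArg (rot c) e1
          _ = lft τ (pr1 m) ((m 0).2.1 + c) := rot_lft _ _ _
          _ = lft τ (pr1 m') (m' 0).2.1 := by rw [he, hc, add_sub_cancel]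
          _ = m' := e2.symm
      rw [e3]
      exact hm'
    have hall : ∀ m ∈ M', rot c m ∈ M' := rot_mem hM' hm hcm
    have hn : ∀ (n : ℕ), ∀ m ∈ M', rot (n • c) m ∈ M' := by
      intro n
      induction n with
      | zero =>
        intro m hm
        have : rot (0 • c) m = m := by
          funext i
          simp [rot]
        rw [this]
        exact hm
      | succ n ih =>
        intro m hm
        have : rot ((n + 1) • c) m = rot c (rot (n • c) m) := by
          funext i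
          simp only [rot]
          rw [add_smul, one_smul, add_assoc]
        rw [this]
        exact hall _ (ih m hm)
    intro m hm d
    have := hn (d * c⁻¹).val m hm
    rwa [nsmul_eq_mul, ZMod.natCast_val, ZMod.cast_id, mul_assoc, inv_mul_cancel₀ hc0,
      mul_one] at this
  have hlift : ∀ m ∈ M, ∀ s : ZMod p, ∃ m' ∈ M', pr1 m' = m ∧ (m' 0).2.1 = s := by
    intro m hm s
    obtain ⟨m', hm', he⟩ := exists_over hM hM' hS hm
    refine ⟨_, hrot m' hm' (s - (m' 0).2.1), he, ?_⟩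
    simp [rot]
  refine ⟨hrot, hlift, fun Θ hΘ hcob => hC ?_⟩
  obtain ⟨ψ, ⟨L, hL⟩, hψ⟩ := hcob
  refine ⟨fun z => ∑ s, ψ (lft τ z s), ⟨L + J + 1, fun z z' h => ?_⟩, fun m hm => ?_⟩
  · exact Finset.sum_congr rfl fun s _ => hL _ _ (lft_win hW h s)
  · obtain ⟨m', hm', he⟩ := exists_over hM hM' hS hm
    have h1 := hΘ m' hm'
    rw [he] at h1
    rw [← h1]
    have h2 : ∀ c, Θ (rot c m') = ψ (rot c m') - ψ (rot c (sh m')) :=
      fun c => hψ _ (hrot m' hm' c)
    rw [Finset.sum_congr rfl fun c _ => h2 c, Finset.sum_sub_distrib]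
    have h3 : ∀ m' ∈ M', ∑ c, ψ (rot c m') = ∑ s, ψ (lft τ (pr1 m') s) := by
      intro m' hm'
      have e1 := eq_lft hM'.inv hS hm'
      rw [← Equiv.sum_comp (Equiv.addLeft (m' 0).2.1) fun s => ψ (lft τ (pr1 m') s)]
      refine Finset.sum_congr rfl fun c _ => ?_
      rw [Equiv.coe_addLeft, ← rot_lft, ← e1]
    rw [h3 m' hm', h3 _ (hM'.inv m' hm'), ← he]
    rfl

end Vale.Agent.P329.H861
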